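import Crest.Agent.R330.IA1

/-! # Row 330, U/A (statements frozen; see `R330/Blueprint.lean`) -/

set_option autoImplicit false
set_option linter.unusedSectionVars false

noncomputable section

open MeasureTheory Filter Topology
open scoped InnerProductSpace ContDiff Matrix
open Crest.MathPhysics.MatrixQM (GammaNine)

namespace Crest.Agent.R330

/-- Bi-invariant Haar probability measure on a compact group. -/
theorem exists_haar (K : Type) [Group K] [TopologicalSpace K] [IsTopologicalGroup K]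
    [CompactSpace K] [T2Space K] [SecondCountableTopology K] [MeasurableSpace K] [BorelSpace K] :
    ∃ μ : Measure K, IsProbabilityMeasure μ ∧ μ.IsMulLeftInvariant ∧ μ.IsMulRightInvariant ∧
      μ.IsOpenPosMeasure := by
  let μ : Measure K := Measure.haarMeasure (⊤ : TopologicalSpace.PositiveCompacts K)
  have hp : IsProbabilityMeasure μ := ⟨by
    have := Measure.haarMeasure_self (K₀ := (⊤ : TopologicalSpace.PositiveCompacts K))
    simpa [μ] using this⟩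
  refine ⟨μ, hp, inferInstance, ⟨fun g => ?_⟩, inferInstance⟩
  have : IsProbabilityMeasure (Measure.map (fun x => x * g) μ) :=
    Measure.isProbabilityMeasure_map (by fun_prop)
  exact Measure.isHaarMeasure_eq_of_isProbabilityMeasure _ _

section Piola

variable {Y Mm : Type} [NormedAddCommGroup Y] [InnerProductSpace ℝ Y] [FiniteDimensional ℝ Y]
  [NormedAddCommGroup Mm] [InnerProductSpace ℝ Mm] [FiniteDimensional ℝ Mm]

/-- Group divergence of `H : Y × Y → 𝔪` along the generators `a ξ` acting diagonally. -/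
def gdiv (a : Mm →ₗ[ℝ] Y →ₗ[ℝ] Y) (H : Y × Y → Mm) (x v : Y) : ℝ :=
  ∑ i, ⟪stdOrthonormalBasis ℝ Mm i,
    fderiv ℝ H (x, v) (a (stdOrthonormalBasis ℝ Mm i) x, a (stdOrthonormalBasis ℝ Mm i) v)⟫_ℝ

/-- The Faddeev–Popov operator of a gauge condition `Φ`. -/
def fpOp (a : Mm →ₗ[ℝ] Y →ₗ[ℝ] Y) (Φ : Y → Mm) (x : Y) : Mm →L[ℝ] Mm :=
  (fderiv ℝ Φ x).comp (LinearMap.toContinuousLinearMap (a.flip x))

theorem uAb_fp (a : Mm →ₗ[ℝ] Y →ₗ[ℝ] Y) {Φ : Y → Mm} {x : Y} (hΦ : DifferentiableAt ℝ (fderiv ℝ Φ) x) :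
    DifferentiableAt ℝ (fpOp a Φ) x ∧ ∀ w ξ, fderiv ℝ (fpOp a Φ) x w ξ =
      fderiv ℝ (fderiv ℝ Φ) x w (a ξ x) + fderiv ℝ Φ x (a ξ w) := by
  let Af : Y →L[ℝ] Mm →L[ℝ] Y := LinearMap.toContinuousLinearMap
    ((LinearMap.toContinuousLinearMap : (Mm →ₗ[ℝ] Y) ≃ₗ[ℝ] (Mm →L[ℝ] Y)).toLinearMap ∘ₗ a.flip)
  have h : HasFDerivAt (fpOp a Φ) _ x := hΦ.hasFDerivAt.clm_comp Af.hasFDerivAt
  refine ⟨h.differentiableAt, fun w ξ => ?_⟩
  rw [h.fderiv]
  simp [Af, add_comm]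

theorem uAb_eta (a : Mm →ₗ[ℝ] Y →ₗ[ℝ] Y) {Φ : Y → Mm} {x : Y} (v : Y)
    (hΦ : DifferentiableAt ℝ (fderiv ℝ Φ) x) (hD : IsUnit (fpOp a Φ x)) :
    DifferentiableAt ℝ (fun q : Y × Y => Ring.inverse (fpOp a Φ q.1) (fderiv ℝ Φ q.1 q.2)) (x, v) ∧
      ∀ w u, fderiv ℝ (fun q : Y × Y => Ring.inverse (fpOp a Φ q.1) (fderiv ℝ Φ q.1 q.2)) (x, v) (w, u) =
        Ring.inverse (fpOp a Φ x) (fderiv ℝ (fderiv ℝ Φ) x w v + fderiv ℝ Φ x u -
          fderiv ℝ (fpOp a Φ) x w (Ring.inverse (fpOp a Φ x) (fderiv ℝ Φ x v))) := by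
  obtain ⟨U, hU⟩ := hD
  have h1 : HasFDerivAt (Ring.inverse : (Mm →L[ℝ] Mm) → Mm →L[ℝ] Mm) _ (fpOp a Φ x) :=
    hU ▸ hasFDerivAt_ringInverse (𝕜 := ℝ) U
  have h2 : HasFDerivAt (fun q : Y × Y => Ring.inverse (fpOp a Φ q.1)) _ (x, v) :=
    (h1.comp x (uAb_fp a hΦ).1.hasFDerivAt).comp (x, v) (f := Prod.fst) hasFDerivAt_fst
  have h3 : HasFDerivAt (fun q : Y × Y => fderiv ℝ Φ q.1 q.2) _ (x, v) :=
    (hΦ.hasFDerivAt.comp (x, v) (f := Prod.fst) hasFDerivAt_fst).clm_apply hasFDerivAt_snd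
  have h := h2.clm_apply h3
  refine ⟨h.differentiableAt, fun w u => ?_⟩
  rw [h.fderiv, ← hU, Ring.inverse_unit]
  simp
  abel

/-- Piola identity.  With `η = D⁻¹ dΦ v`, `τ = v - η·x`, `p = g(Φ) j`:
`dp(v) - div(p η) = g(Φ) [dj(τ) - j tr(D⁻¹ ∂_τ D) - j tr(ξ ↦ D⁻¹ dΦ([ξ, η] x))]`. -/
theorem piola (a : Mm →ₗ[ℝ] Y →ₗ[ℝ] Y) {Φ : Y → Mm} {g : Mm → ℝ} {j : Y → ℝ} {x : Y} (v : Y)
    (hΦ : ContDiffAt ℝ 2 Φ x) (hg : DifferentiableAt ℝ g (Φ x)) (hj : DifferentiableAt ℝ j x)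
    (hD : IsUnit (fpOp a Φ x)) :
    let η : Y × Y → Mm := fun q => Ring.inverse (fpOp a Φ q.1) (fderiv ℝ Φ q.1 q.2)
    let τ : Y := v - a (η (x, v)) x
    DifferentiableAt ℝ (fun q : Y × Y => (g (Φ q.1) * j q.1) • η q) (x, v) ∧
    fderiv ℝ (fun y => g (Φ y) * j y) x v - gdiv a (fun q => (g (Φ q.1) * j q.1) • η q) x v =
      g (Φ x) * (fderiv ℝ j x τ -
        j x * LinearMap.trace ℝ Mm
          ((Ring.inverse (fpOp a Φ x)).comp (fderiv ℝ (fpOp a Φ) x τ)).toLinearMap -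
        j x * ∑ i, ⟪stdOrthonormalBasis ℝ Mm i, Ring.inverse (fpOp a Φ x) (fderiv ℝ Φ x
          (a (stdOrthonormalBasis ℝ Mm i) (a (η (x, v)) x) -
            a (η (x, v)) (a (stdOrthonormalBasis ℝ Mm i) x)))⟫_ℝ) := by
  intro η τ
  have h1 : DifferentiableAt ℝ Φ x := hΦ.differentiableAt (by simp)
  have h2 : DifferentiableAt ℝ (fderiv ℝ Φ) x :=
    (hΦ.fderiv_right (m := 1) (by norm_num)).differentiableAt (by simp)
  have hs : ∀ u w, fderiv ℝ (fderiv ℝ Φ) x u w = fderiv ℝ (fderiv ℝ Φ) x w u :=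
    hΦ.isSymmSndFDerivAt (by simp)
  obtain ⟨e1, e2⟩ := uAb_eta a v h2 hD
  have e3 := (uAb_fp a h2).2
  have hp : HasFDerivAt (fun y => g (Φ y) * j y) _ x :=
    (hg.hasFDerivAt.comp x h1.hasFDerivAt).mul hj.hasFDerivAt
  have hτ : fderiv ℝ Φ x τ = 0 := by
    have : fpOp a Φ x (Ring.inverse (fpOp a Φ x) (fderiv ℝ Φ x v)) = fderiv ℝ Φ x v := by
      rw [← mul_apply_eq_comp, Ring.mul_inverse_cancel _ hD]
      rfl
    rw [map_sub, sub_eq_zero]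
    exact this.symm
  have hpτ : fderiv ℝ (fun y => g (Φ y) * j y) x τ = g (Φ x) * fderiv ℝ j x τ := by
    rw [hp.fderiv]
    simp [hτ]
  have hq : HasFDerivAt (fun q : Y × Y => (g (Φ q.1) * j q.1) • η q) _ (x, v) :=
    (hp.differentiableAt.hasFDerivAt.comp (x, v) (f := Prod.fst) hasFDerivAt_fst).smul e1.hasFDerivAt
  refine ⟨hq.differentiableAt, ?_⟩
  have key : ∀ e : Mm, fderiv ℝ (fun q : Y × Y => (g (Φ q.1) * j q.1) • η q) (x, v) (a e x, a e v) =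
      (g (Φ x) * j x) • (Ring.inverse (fpOp a Φ x) (fderiv ℝ (fpOp a Φ) x τ e) +
        Ring.inverse (fpOp a Φ x) (fderiv ℝ Φ x (a e (a (η (x, v)) x) - a (η (x, v)) (a e x)))) +
      fderiv ℝ (fun y => g (Φ y) * j y) x (a e x) • η (x, v) := by
    intro e
    rw [hq.fderiv]
    have : fderiv ℝ η (x, v) (a e x, a e v) = Ring.inverse (fpOp a Φ x) (fderiv ℝ (fpOp a Φ) x τ e) +
        Ring.inverse (fpOp a Φ x) (fderiv ℝ Φ x (a e (a (η (x, v)) x) - a (η (x, v)) (a e x))) := by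
      rw [e2, ← map_add, e3, e3, hs τ]
      congr 1
      simp only [τ, η, map_sub]
      abel
    rw [← this]
    simp [η]
  have hsum : ∑ i, ⟪stdOrthonormalBasis ℝ Mm i,
      fderiv ℝ (fun y => g (Φ y) * j y) x (a (stdOrthonormalBasis ℝ Mm i) x) • η (x, v)⟫_ℝ =
      fderiv ℝ (fun y => g (Φ y) * j y) x (a (η (x, v)) x) := by
    conv_rhs => rw [← (stdOrthonormalBasis ℝ Mm).sum_repr' (η (x, v))]
    simp only [map_sum, map_smul, LinearMap.sum_apply, LinearMap.smul_apply, inner_smul_right, smul_eq_mul,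
      mul_comm]
  have hv : fderiv ℝ (fun y => g (Φ y) * j y) x v =
      g (Φ x) * fderiv ℝ j x τ + fderiv ℝ (fun y => g (Φ y) * j y) x (a (η (x, v)) x) := by
    rw [← hpτ, ← map_add, sub_add_cancel]
  rw [gdiv, LinearMap.trace_eq_sum_inner _ (stdOrthonormalBasis ℝ Mm), hv]
  simp only [key, inner_add_right, Finset.sum_add_distrib, hsum]
  simp only [inner_smul_right, inner_add_right, ← Finset.mul_sum, Finset.sum_add_distrib]
  simp only [ContinuousLinearMap.coe_coe, ContinuousLinearMap.comp_apply]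
  ring

end Piola

end Crest.Agent.R330

end
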