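import Crest.Agent.R330.IA2
import Crest.Agent.R330.U.A

/-! # Row 330, U/B (statements frozen; see `R330/Blueprint.lean`) -/

set_option autoImplicit false
set_option linter.unusedSectionVars false

noncomputable section

open MeasureTheory Filter Topology
open scoped InnerProductSpace ContDiff Matrix
open Crest.MathPhysics.MatrixQM (GammaNine)

namespace Crest.Agent.R330

variable {E F : Type} [NormedAddCommGroup E] [InnerProductSpace ℝ E] [FiniteDimensional ℝ E]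
  [MeasurableSpace E] [BorelSpace E]
  [NormedAddCommGroup F] [InnerProductSpace ℂ F] [FiniteDimensional ℂ F]
  {K : Type} [Group K] [TopologicalSpace K] [IsTopologicalGroup K]
  [CompactSpace K] [MeasurableSpace K] [BorelSpace K] {𝔤 : Lie E} (Γ : Grp 𝔤 K)

namespace Grp
theorem ub_apply (k : K) (x : X E) (a : Fin 9) : Γ.ax k x a = Γ.act k (x a) := rfl


theorem ax_mul (k k' : K) (x : X E) : Γ.ax (k * k') x = Γ.ax k (Γ.ax k' x) := by
  ext a
  rw [ub_apply, ub_apply, ub_apply, map_mul]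
  rfl

theorem ax_one (x : X E) : Γ.ax 1 x = x := by
  ext a
  rw [ub_apply, map_one]
  rfl

theorem continuous_ax : Continuous fun p : K × X E => Γ.ax p.1 p.2 := by
  have h : Continuous fun p : K × X E => fun a => Γ.act p.1 (p.2 a) :=
    continuous_pi fun a => Γ.cont.comp (continuous_fst.prodMk (by fun_prop))
  exact (PiLp.continuous_toLp 2 _).comp h

theorem continuous_axL : Continuous fun k : K => (Γ.ax k).toContinuousLinearMap := by
  rw [continuous_clm_apply]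
  intro y
  exact Γ.continuous_ax.comp (continuous_id.prodMk continuous_const)

theorem act_br (k : K) (u v : E) : Γ.act k (𝔤.br u v) = 𝔤.br (Γ.act k u) (Γ.act k v) := by
  obtain ⟨ξ, h⟩ := Γ.exp_of k
  rw [h, h, h, Lie.rexp'_br]

theorem ax_mat (k : K) (O : Matrix (Fin 9) (Fin 9) ℝ) (x : X E) :
    Γ.ax k (mat O x) = mat O (Γ.ax k x) := by
  ext a
  simp [ub_apply, mat]
theorem ub_flow {k : K} {ξ : E} (h : ∀ v, Γ.act k v = rexp' (𝔤.br ξ) v) (n : ℕ) (x : T n E) :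
    liftI n (Γ.act k).toLinearIsometry x = rexp' (lift n (𝔤.br ξ)) x := by
  rw [rexp'_lift]
  ext a
  exact h (x a)


theorem exists_ax_flow (ξ : E) : ∃ k, ∀ x, Γ.ax k x = rexp' (lift 9 (𝔤.br ξ)) x := by
  obtain ⟨k, h⟩ := Γ.of_exp ξ
  exact ⟨k, Γ.ub_flow h 9⟩

theorem exists_flow_ax (k : K) : ∃ ξ : E, ∀ x, Γ.ax k x = rexp' (lift 9 (𝔤.br ξ)) x := by
  obtain ⟨ξ, h⟩ := Γ.exp_of k
  exact ⟨ξ, Γ.ub_flow h 9⟩
theorem ub_wd (σ : Spn) (ε : ℝ) {f : E → E} (hf : ∀ k v, f (Γ.act k v) = Γ.act k (f v))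
    (k : K) (x : X E) :
    wd 𝔤 σ ε f (Γ.ax k x) = liftI 16 (Γ.act k).toLinearIsometry (wd 𝔤 σ ε f x) := by
  ext a
  change _ = Γ.act k (wd 𝔤 σ ε f x a)
  simp [wd, wpot, cmap, mat, tens, ub_apply, hf, Γ.act_br]


theorem norm_wd_ax (σ : Spn) (ε : ℝ) {f : E → E} (hf : ∀ k v, f (Γ.act k v) = Γ.act k (f v))
    (k : K) (x : X E) : ‖wd 𝔤 σ ε f (Γ.ax k x)‖ = ‖wd 𝔤 σ ε f x‖ := by
  rw [Γ.ub_wd σ ε hf, LinearIsometry.norm_map]

theorem ub_fderiv {f : E → E} (hfd : ContDiff ℝ ∞ f) (hf : ∀ k v, f (Γ.act k v) = Γ.act k (f v)) (k : K)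
    (u v : E) : fderiv ℝ f (Γ.act k u) (Γ.act k v) = Γ.act k (fderiv ℝ f u v) := by
  have hd := hfd.differentiable (by simp)
  let L : E →L[ℝ] E := (Γ.act k).toLinearIsometry.toContinuousLinearMap
  have h1 : HasFDerivAt (fun y => f (L y)) ((fderiv ℝ f (L u)).comp L) u :=
    (hd (L u)).hasFDerivAt.comp u L.hasFDerivAt
  have h2 : HasFDerivAt (fun y => L (f y)) (L.comp (fderiv ℝ f u)) u :=
    L.hasFDerivAt.comp u (hd u).hasFDerivAt
  have e : (fun y => f (L y)) = fun y => L (f y) := funext fun y => hf k y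
  rw [e] at h1
  exact DFunLike.congr_fun (h1.unique h2) v

theorem ub_yuk (σ : Spn) (ε : ℝ) {f : E → E} (hfd : ContDiff ℝ ∞ f)
    (hf : ∀ k v, f (Γ.act k v) = Γ.act k (f v)) (k : K) (x : X E) (v : Th E) :
    yuk 𝔤 σ ε f (Γ.ax k x) (liftI 16 (Γ.act k).toLinearIsometry v) =
      liftI 16 (Γ.act k).toLinearIsometry (yuk 𝔤 σ ε f x v) := by
  have hl : ∀ (w : Th E) (a : Fin 16), liftI 16 (Γ.act k).toLinearIsometry w a = Γ.act k (w a) :=
    fun _ _ => rfl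
  ext a
  simp [yuk, mat, lift, ub_apply, hl, Γ.act_br, Γ.ub_fderiv hfd hf]

theorem ub_equiv (C : Cl (Th E) F) (G : GammaNine) {ψ : X E → F} (hψ : Cls 𝔤 C G ∅ ψ) {k : K} {ξ : E}
    (h : ∀ v, Γ.act k v = rexp' (𝔤.br ξ) v) (x : X E) :
    ψ (Γ.ax k x) = NormedSpace.exp (C.S (lift 16 (𝔤.br ξ))) (ψ x) := by
  have := ((cls_iff_ds 𝔤 C G ∅ ψ).1 hψ).2 _ (Or.inl ⟨ξ, rfl⟩) x
  rw [← this]
  exact congrArg ψ (Γ.ub_flow h 9 x)

/-- The scalar densities of a gauge invariant function are `K`-invariant. -/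
theorem densities (C : Cl (Th E) F) (σ : Spn) (ε κ : ℝ) {f : E → E} (hfd : ContDiff ℝ ∞ f)
    (hf : ∀ k v, f (Γ.act k v) = Γ.act k (f v)) {ψ : X E → F} (hψ : Cls 𝔤 C σ.G ∅ ψ) (k : K)
    (x : X E) :
    ‖ψ (Γ.ax k x)‖ = ‖ψ x‖ ∧ ‖Qd 𝔤 C σ ε f ψ (Γ.ax k x)‖ = ‖Qd 𝔤 C σ ε f ψ x‖ ∧
      gsq ψ (Γ.ax k x) = gsq ψ x ∧ edens 𝔤 C σ ε f κ ψ (Γ.ax k x) = edens 𝔤 C σ ε f κ ψ x := by
  obtain ⟨ξ, h⟩ := Γ.exp_of k
  set U : F →L[ℂ] F := NormedSpace.exp (C.S (lift 16 (𝔤.br ξ))) with hU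
  have hUn : ∀ v, ‖U v‖ = ‖v‖ :=
    (symOK_flows 𝔤 C σ.G (𝒱 := ∅) (fun p hp => hp.elim) _ (Or.inl ⟨ξ, rfl⟩)).2
  have hθ : ∀ v, U * C.θ v = C.θ (liftI 16 (Γ.act k).toLinearIsometry v) * U := fun v => by
    rw [Γ.ub_flow h 16, hU]
    exact C.exp_S_θ (isSkew_lift (𝔤.isSkew_br ξ)) v
  have he : ∀ y, ψ (Γ.ax k y) = U (ψ y) := Γ.ub_equiv C σ.G hψ h
  have hd : Differentiable ℝ ψ := hψ.1.1.differentiable (by simp)
  let R : X E →L[ℝ] X E := (Γ.ax k).toContinuousLinearMap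
  have hR : ∀ y, ‖R y‖ = ‖y‖ := (Γ.ax k).norm_map
  have h1 : ‖ψ (Γ.ax k x)‖ = ‖ψ x‖ := by rw [he, hUn]
  have h2 : Qd 𝔤 C σ ε f ψ (Γ.ax k x) = U (Qd 𝔤 C σ ε f ψ x) := by
    refine dirac_equivariant C (cmap σ.G σ.s) (wd 𝔤 σ ε f) R U hR (fun y => ?_) (fun y => ?_) hd he x
    · rw [hθ]
      congr 2
      ext a
      change Γ.act k (cmap σ.G σ.s y a) = cmap σ.G σ.s (Γ.ax k y) a
      simp [cmap, mat, ub_apply]
    · rw [hθ, ← Γ.ub_wd σ ε hf]
      rfl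
  have h3 : gsq ψ (Γ.ax k x) = gsq ψ x := gsq_equivariant R U hR hUn hd he x
  refine ⟨h1, by rw [h2, hUn], h3, ?_⟩
  let O : Th E ≃ₗᵢ[ℝ] Th E := (liftI 16 (Γ.act k).toLinearIsometry).toLinearIsometryEquiv rfl
  have hO : ∀ v, O v = liftI 16 (Γ.act k).toLinearIsometry v := fun _ => rfl
  have h4 := C.S_conj U O hθ (yuk 𝔤 σ ε f x)
  have h5 : O.toLinearEquiv.toLinearMap ∘ₗ yuk 𝔤 σ ε f x ∘ₗ O.symm.toLinearEquiv.toLinearMap =
      yuk 𝔤 σ ε f (Γ.ax k x) := by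
    refine LinearMap.ext fun v => ?_
    change O (yuk 𝔤 σ ε f x (O.symm v)) = _
    rw [hO, ← Γ.ub_yuk σ ε hfd hf, ← hO, O.apply_symm_apply]
  rw [h5] at h4
  have h6 : C.iS (yuk 𝔤 σ ε f (Γ.ax k x)) (U (ψ x)) = U (C.iS (yuk 𝔤 σ ε f x) (ψ x)) := by
    have := DFunLike.congr_fun h4 (ψ x)
    simp only [mul_apply_eq_comp] at this
    simp only [Cl.iS, smul_apply, map_smul, this]
  have h7 : ∀ a b, ⟪U a, U b⟫_ℂ = ⟪a, b⟫_ℂ := (⟨U.toLinearMap, hUn⟩ : F →ₗᵢ[ℂ] F).inner_map_map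
  unfold edens
  rw [h3, h1, Γ.norm_wd_ax σ ε hf, he, h6, h7]

theorem tsupport_ax (C : Cl (Th E) F) (G : GammaNine) {ψ : X E → F} (hψ : Cls 𝔤 C G ∅ ψ) (k : K)
    {x : X E} (hx : x ∈ tsupport ψ) : Γ.ax k x ∈ tsupport ψ := by
  obtain ⟨ξ, h⟩ := Γ.exp_of k
  have hUn := (symOK_flows 𝔤 C G (𝒱 := ∅) (fun p hp => hp.elim) _ (Or.inl ⟨ξ, rfl⟩)).2
  refine map_mem_closure (Γ.ax k).continuous hx fun y hy h0 => hy ?_
  rw [Γ.ub_equiv C G hψ h] at h0
  rw [← norm_eq_zero, ← hUn]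
  exact norm_eq_zero.2 h0

theorem avg_ax (p : X E → ℝ) (k : K) (x : X E) : Γ.avg p (Γ.ax k x) = Γ.avg p x := by
  have := Γ.right
  unfold avg
  simp only [← Γ.ax_mul]
  exact integral_mul_right_eq_self (fun k' => p (Γ.ax k' x)) k

theorem avg_rotInv {p : X E → ℝ} (hp : RotInv p) : RotInv (Γ.avg p) := by
  intro O hO x
  unfold avg
  simp only [Γ.ax_mat, hp O hO]

theorem avg_nonneg {p : X E → ℝ} (hp : ∀ x, 0 ≤ p x) (x : X E) : 0 ≤ Γ.avg p x := by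
  exact integral_nonneg fun k => hp _

theorem avg_pos {p : X E → ℝ} (hc : Continuous p) (hp : ∀ x, 0 ≤ p x) {x : X E} {k : K}
    (hk : 0 < p (Γ.ax k x)) : 0 < Γ.avg p x := by
  have := Γ.prob
  have := Γ.pos
  have h1 : Continuous fun k' => p (Γ.ax k' x) :=
    hc.comp (Γ.continuous_ax.comp (continuous_id.prodMk continuous_const))
  exact h1.integral_pos_of_hasCompactSupport_nonneg_nonzero (HasCompactSupport.of_compactSpace _)
    (fun k' => hp _) hk.ne'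

theorem contDiff_avg {p : X E → ℝ} (hp : ContDiff ℝ ∞ p) : ContDiff ℝ ∞ (Γ.avg p) := by
  have := Γ.prob
  exact (R330.contDiff_avg Γ.μ _ Γ.continuous_axL (fun _ => ContinuousLinearMap.id ℝ ℝ) continuous_const hp).1

/-- Unfixing: `∫ p h = ∫ N h` for invariant `h`. -/
theorem integral_avg {p h : X E → ℝ} (hp : Continuous p) (hh : Integrable h)
    (hc : HasCompactSupport h) (hi : ∀ k x, h (Γ.ax k x) = h x) :
    ∫ x, p x * h x = ∫ x, Γ.avg p x * h x := by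
  have := Γ.prob
  obtain ⟨r, hr⟩ := hc.isCompact.isBounded.subset_closedBall 0
  obtain ⟨M, hM⟩ := (isCompact_closedBall (0 : X E) r).exists_bound_of_continuousOn hp.continuousOn
  have h1 : ∀ k, ∫ x, p (Γ.ax k x) * h x = ∫ x, p x * h x := fun k => by
    have := ((Γ.ax k).toLinearIsometryEquiv rfl).measurePreserving.integral_comp
      ((Γ.ax k).toLinearIsometryEquiv rfl).toHomeomorph.measurableEmbedding fun x => p x * h x
    rw [← this]
    refine integral_congr_ae (Eventually.of_forall fun x => ?_)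
    change _ = p (Γ.ax k x) * h (Γ.ax k x)
    rw [hi]
  have h2 : Integrable (Function.uncurry fun (k : K) (x : X E) => p (Γ.ax k x) * h x) (Γ.μ.prod volume) := by
    refine ((hh.norm.const_mul M).comp_snd Γ.μ).mono'
      ((hp.comp Γ.continuous_ax).aestronglyMeasurable.mul hh.aestronglyMeasurable.comp_snd)
      (Eventually.of_forall fun q => ?_)
    change ‖p (Γ.ax q.1 q.2) * h q.2‖ ≤ M * ‖h q.2‖
    by_cases h0 : h q.2 = 0
    · simp [h0]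
    · rw [norm_mul]
      refine mul_le_mul_of_nonneg_right (hM _ ?_) (norm_nonneg _)
      have := hr (subset_tsupport h h0)
      rwa [mem_closedBall_zero_iff, ← (Γ.ax q.1).norm_map, ← mem_closedBall_zero_iff] at this
  calc ∫ x, p x * h x = ∫ k, ∫ x, p (Γ.ax k x) * h x ∂volume ∂Γ.μ := by simp [h1]
    _ = ∫ x, ∫ k, p (Γ.ax k x) * h x ∂Γ.μ := integral_integral_swap h2
    _ = _ := by simp only [integral_mul_const, avg]

end Grp

end Crest.Agent.R330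

end
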