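import Crest.Agent.R330.U.B

/-! # Row 330, U/C (statements frozen; see `R330/Blueprint.lean`) -/

set_option autoImplicit false
set_option linter.unusedSectionVars false

noncomputable section

open MeasureTheory Filter Topology
open scoped InnerProductSpace ContDiff Matrix
open Crest.MathPhysics.MatrixQM (GammaNine)

namespace Crest.Agent.R330

variable {E F : Type} [NormedAddCommGroup E] [InnerProductSpace ℝ E] [FiniteDimensional ℝ E]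
  [MeasurableSpace E] [BorelSpace E]
  [NormedAddCommGroup F] [InnerProductSpace ℂ F] [FiniteDimensional ℂ F]
  {K : Type} [Group K] [TopologicalSpace K] [IsTopologicalGroup K]
  [CompactSpace K] [MeasurableSpace K] [BorelSpace K] {𝔤 : Lie E} (Γ : Grp 𝔤 K)

namespace Grp

theorem uc_int {g : K → ℝ} (hg : Continuous g) : Integrable g Γ.μ := by
  have := Γ.prob
  exact hg.integrable_of_hasCompactSupport (HasCompactSupport.of_compactSpace g)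

theorem uc_deriv {G G' : ℝ × K → ℝ} (hG : Continuous G) (hG' : Continuous G')
    (h : ∀ k t, HasDerivAt (fun s => G (s, k)) (G' (t, k)) t) :
    HasDerivAt (fun s => ∫ k, G (s, k) ∂Γ.μ) (∫ k, G' (0, k) ∂Γ.μ) 0 := by
  have := Γ.prob
  obtain ⟨b, hb⟩ := ((isCompact_Icc (a := (-1 : ℝ)) (b := 1)).prod (isCompact_univ (X := K))).exists_bound_of_continuousOn
    hG'.continuousOn
  refine (hasDerivAt_integral_of_dominated_loc_of_deriv_le (μ := Γ.μ) (F := fun s k => G (s, k))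
    (F' := fun s k => G' (s, k)) (bound := fun _ => b) (s := Set.Icc (-1) 1)
    (Icc_mem_nhds (by norm_num) (by norm_num)) (Eventually.of_forall fun s => ?_) ?_ ?_
    (Eventually.of_forall fun k s hs => hb (s, k) ⟨hs, trivial⟩) (integrable_const b)
    (Eventually.of_forall fun k s _ => h k s)).2
  · exact (Γ.uc_int (hG.comp (by fun_prop))).1
  · exact Γ.uc_int (hG.comp (by fun_prop))
  · exact (Γ.uc_int (hG'.comp (by fun_prop))).1

theorem uc_cont (x : X E) : Continuous fun k : K => Γ.ax k x :=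
  Γ.continuous_ax.comp (f := fun k : K => (k, x)) (by fun_prop)

theorem uc_fderiv_avg {p : X E → ℝ} (hp : ContDiff ℝ ∞ p) (x v : X E) :
    fderiv ℝ (Γ.avg p) x v = ∫ k, fderiv ℝ p (Γ.ax k x) (Γ.ax k v) ∂Γ.μ := by
  have hc : Continuous fun q : ℝ × K => Γ.ax q.2 (x + q.1 • v) :=
    Γ.continuous_ax.comp (f := fun q : ℝ × K => (q.2, x + q.1 • v)) (by fun_prop)
  have hl : ∀ t : ℝ, HasDerivAt (fun s : ℝ => x + s • v) v t := fun t => by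
    simpa using ((hasDerivAt_id t).smul_const v).const_add x
  have h1 := Γ.uc_deriv (G := fun q => p (Γ.ax q.2 (x + q.1 • v)))
    (G' := fun q => fderiv ℝ p (Γ.ax q.2 (x + q.1 • v)) (Γ.ax q.2 v)) (hp.continuous.comp hc)
    (((hp.continuous_fderiv (by simp)).comp hc).clm_apply ((Γ.uc_cont v).comp continuous_snd))
    fun k t => (hp.differentiable (by simp) _).hasFDerivAt.comp_hasDerivAt t
      ((Γ.ax k).toContinuousLinearMap.hasFDerivAt.comp_hasDerivAt t (hl t))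
  have h2 : HasDerivAt (fun s : ℝ => Γ.avg p (x + s • v)) (fderiv ℝ (Γ.avg p) x v) 0 :=
    ((Γ.contDiff_avg hp).differentiable (by simp) x).hasFDerivAt.comp_hasDerivAt_of_eq 0 (hl 0) (by simp)
  simpa using h2.unique h1

theorem uc_zero {h : X E × X E → ℝ} (hh : ContDiff ℝ 1 h) (ξ : E) (x v : X E) :
    ∫ k, fderiv ℝ h (Γ.ax k x, Γ.ax k v) (lift 9 (𝔤.br ξ) (Γ.ax k x), lift 9 (𝔤.br ξ) (Γ.ax k v)) ∂Γ.μ = 0 := by
  have := Γ.left
  set A : X E →ₗ[ℝ] X E := lift 9 (𝔤.br ξ) with hA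
  have hR : Continuous fun t : ℝ => rexp' (t • A) :=
    continuous_iff_continuousAt.2 fun t => (ba_hasDerivAt_clm A t).continuousAt
  have hc : ∀ y : X E, Continuous fun q : ℝ × K => rexp' (q.1 • A) (Γ.ax q.2 y) := fun y =>
    (hR.comp continuous_fst).clm_apply ((Γ.uc_cont y).comp continuous_snd)
  have hAc : Continuous A := A.continuous_of_finiteDimensional
  have h1 := Γ.uc_deriv (G := fun q => h (rexp' (q.1 • A) (Γ.ax q.2 x), rexp' (q.1 • A) (Γ.ax q.2 v)))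
    (G' := fun q => fderiv ℝ h (rexp' (q.1 • A) (Γ.ax q.2 x), rexp' (q.1 • A) (Γ.ax q.2 v))
      (A (rexp' (q.1 • A) (Γ.ax q.2 x)), A (rexp' (q.1 • A) (Γ.ax q.2 v))))
    (hh.continuous.comp ((hc x).prodMk (hc v)))
    (((hh.continuous_fderiv (by simp)).comp ((hc x).prodMk (hc v))).clm_apply
      ((hAc.comp (hc x)).prodMk (hAc.comp (hc v))))
    fun k t => (hh.differentiable (by simp) _).hasFDerivAt.comp_hasDerivAt t
      ((hasDerivAt_rexp' A (Γ.ax k x) t).prodMk (hasDerivAt_rexp' A (Γ.ax k v) t))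
  have h2 : (fun s : ℝ => ∫ k, h (rexp' (s • A) (Γ.ax k x), rexp' (s • A) (Γ.ax k v)) ∂Γ.μ) =
      fun _ => ∫ k, h (Γ.ax k x, Γ.ax k v) ∂Γ.μ := by
    funext s
    obtain ⟨k₀, hk₀⟩ := Γ.exists_ax_flow (s • ξ)
    have e : lift 9 (𝔤.br (s • ξ)) = s • A := by
      ext y a
      simp [hA]
    rw [e] at hk₀
    rw [← integral_mul_left_eq_self (fun k => h (Γ.ax k x, Γ.ax k v)) k₀]
    simp only [Γ.ax_mul, hk₀]
  simp only [zero_smul, rexp'_zero] at h1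
  rw [h2] at h1
  exact h1.unique (hasDerivAt_const _ _)

/-- Gradient bound for the orbit average from an approximate Piola identity.  `ι` embeds the
gauge-fixed directions. -/
theorem fderiv_avg_le {Mm : Type} [NormedAddCommGroup Mm] [InnerProductSpace ℝ Mm]
    [FiniteDimensional ℝ Mm] (a : Mm →ₗ[ℝ] X E →ₗ[ℝ] X E) (ι : Mm → E)
    (ha : ∀ ξ, a ξ = lift 9 (𝔤.br (ι ξ)))
    {p : X E → ℝ} (hp : ContDiff ℝ ∞ p) (hp0 : ∀ x, 0 ≤ p x) {H : X E × X E → Mm}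
    (hH : ContDiff ℝ 1 H) {x : X E} {Λ : ℝ} (hΛ0 : 0 ≤ Λ) (hΛ : ∀ k v, |fderiv ℝ p (Γ.ax k x) v - gdiv a H (Γ.ax k x) v| ≤
      Λ * p (Γ.ax k x) * ‖v‖) : ‖fderiv ℝ (Γ.avg p) x‖ ≤ Λ * Γ.avg p x := by
  refine ContinuousLinearMap.opNorm_le_bound _ (mul_nonneg hΛ0 (Γ.avg_nonneg hp0 x)) fun v => ?_
  set b := stdOrthonormalBasis ℝ Mm with hb
  have hxv : Continuous fun k : K => (Γ.ax k x, Γ.ax k v) := (Γ.uc_cont x).prodMk (Γ.uc_cont v)
  have hi : ∀ i, ContDiff ℝ 1 fun q => ⟪b i, H q⟫_ℝ := fun i => contDiff_const.inner ℝ hH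
  have he : ∀ i (q u : X E × X E), ⟪b i, fderiv ℝ H q u⟫_ℝ = fderiv ℝ (fun q => ⟪b i, H q⟫_ℝ) q u := fun i q u => by
    have := ((innerSL ℝ (b i)).hasFDerivAt.comp q (hH.differentiable (by simp) q).hasFDerivAt).fderiv
    exact (congrArg (fun L : X E × X E →L[ℝ] ℝ => L u) this).symm
  have hci : ∀ i, Continuous fun k : K => fderiv ℝ (fun q => ⟪b i, H q⟫_ℝ) (Γ.ax k x, Γ.ax k v)
      (lift 9 (𝔤.br (ι (b i))) (Γ.ax k x), lift 9 (𝔤.br (ι (b i))) (Γ.ax k v)) := fun i => by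
    have hA : Continuous (lift 9 (𝔤.br (ι (b i)))) := LinearMap.continuous_of_finiteDimensional _
    exact (((hi i).continuous_fderiv (by simp)).comp hxv).clm_apply
      ((hA.comp (Γ.uc_cont x)).prodMk (hA.comp (Γ.uc_cont v)))
  have hg : ∀ k, gdiv a H (Γ.ax k x) (Γ.ax k v) = ∑ i, fderiv ℝ (fun q => ⟪b i, H q⟫_ℝ) (Γ.ax k x, Γ.ax k v)
      (lift 9 (𝔤.br (ι (b i))) (Γ.ax k x), lift 9 (𝔤.br (ι (b i))) (Γ.ax k v)) := fun k => by
    simp only [gdiv, ha, ← hb, he]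
  have h0 : ∫ k, gdiv a H (Γ.ax k x) (Γ.ax k v) ∂Γ.μ = 0 := by
    simp only [hg]
    rw [integral_finsetSum _ fun i _ => Γ.uc_int (hci i)]
    exact Finset.sum_eq_zero fun i _ => Γ.uc_zero (hi i) _ x v
  have i1 : Integrable (fun k => fderiv ℝ p (Γ.ax k x) (Γ.ax k v)) Γ.μ :=
    Γ.uc_int (((hp.continuous_fderiv (by simp)).comp (Γ.uc_cont x)).clm_apply (Γ.uc_cont v))
  have i2 : Integrable (fun k => gdiv a H (Γ.ax k x) (Γ.ax k v)) Γ.μ := by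
    simp only [hg]
    exact Γ.uc_int (continuous_finsetSum _ fun i _ => hci i)
  rw [Γ.uc_fderiv_avg hp, ← sub_zero (∫ k, fderiv ℝ p (Γ.ax k x) (Γ.ax k v) ∂Γ.μ), ← h0, ← integral_sub i1 i2]
  refine (norm_integral_le_of_norm_le (g := fun k => Λ * p (Γ.ax k x) * ‖v‖)
    (((Γ.uc_int (hp.continuous.comp (Γ.uc_cont x))).const_mul Λ).mul_const _)
    (Eventually.of_forall fun k => ?_)).trans (le_of_eq ?_)
  · have := hΛ k (Γ.ax k v)
    rwa [(Γ.ax k).norm_map] at this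
  · rw [integral_mul_const, integral_const_mul]; rfl

theorem uc_mul {g h : X E → ℝ} {S : Set (X E)} (hS : IsCompact S) (hg : ContinuousOn g S) (hh : Integrable h)
    (hs : ∀ x, x ∉ S → h x = 0) : Integrable fun x => g x * h x :=
  (hh.integrableOn.continuousOn_mul hg hS).integrable_of_forall_notMem_eq_zero fun x hx => by
    rw [hs x hx, mul_zero]

theorem uc_sq {a b : F} {δ : ℝ} (hδ : 0 < δ) : ‖a - b‖ ^ 2 ≤ (1 + δ) * ‖a‖ ^ 2 + (1 + δ⁻¹) * ‖b‖ ^ 2 := by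
  have h1 : ‖a - b‖ ^ 2 ≤ (‖a‖ + ‖b‖) ^ 2 := pow_le_pow_left₀ (norm_nonneg _) (norm_sub_le a b) 2
  have h2 : 0 ≤ δ⁻¹ * (δ * ‖a‖ - ‖b‖) ^ 2 := by positivity
  have h3 : δ⁻¹ * (δ * ‖a‖ - ‖b‖) ^ 2 = δ * ‖a‖ ^ 2 - 2 * ‖a‖ * ‖b‖ + δ⁻¹ * ‖b‖ ^ 2 := by
    field_simp; ring
  nlinarith

theorem uc_sum {Y ι : Type} [NormedAddCommGroup Y] [NormedSpace ℝ Y] [Fintype ι] {N : ι → Y → ℝ} {x : Y}
    (hN : ∀ i, DifferentiableAt ℝ (N i) x) {r : ℝ} (hr : ∀ i, ‖fderiv ℝ (N i) x‖ ≤ r * N i x) :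
    ‖fderiv ℝ (fun y => ∑ i, N i y) x‖ ≤ r * ∑ i, N i x := by
  rw [fderiv_fun_sum fun i _ => hN i, Finset.mul_sum]
  exact norm_sum_le_of_le _ fun i _ => hr i

theorem uc_grad {Y : Type} [NormedAddCommGroup Y] [InnerProductSpace ℝ Y] [FiniteDimensional ℝ Y]
    {N : Y → ℝ} {x : Y} (hN : DifferentiableAt ℝ N x) (h0 : 0 < N x) {r : ℝ}
    (hr : ‖fderiv ℝ N x‖ ≤ r * N x) : N x * ‖gradient (fun y => (√(N y))⁻¹) x‖ ^ 2 ≤ r ^ 2 := by
  have hs : 0 < √(N x) := Real.sqrt_pos.2 h0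
  have h1 := ((Real.hasDerivAt_sqrt h0.ne').inv hs.ne').comp_hasFDerivAt x hN.hasFDerivAt
  have h2 : ‖gradient (fun y => (√(N y))⁻¹) x‖ = ‖fderiv ℝ (fun y => (√(N y))⁻¹) x‖ := by
    simp only [gradient, LinearIsometryEquiv.norm_map]
  have h3 : fderiv ℝ (fun y => (√(N y))⁻¹) x = (-(1 / (2 * √(N x))) / √(N x) ^ 2) • fderiv ℝ N x := h1.fderiv
  have h4 : ‖gradient (fun y => (√(N y))⁻¹) x‖ ≤ r / (2 * √(N x)) := by
    rw [h2, h3, norm_smul, Real.norm_eq_abs, neg_div, abs_neg, abs_of_pos (by positivity), Real.sq_sqrt h0.le]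
    refine (mul_le_mul_of_nonneg_left hr (by positivity)).trans (le_of_eq ?_)
    field_simp
  have h5 := pow_le_pow_left₀ (norm_nonneg _) h4 2
  rw [div_pow, mul_pow, Real.sq_sqrt h0.le] at h5
  refine (mul_le_mul_of_nonneg_left h5 h0.le).trans ?_
  rw [show N x * (r ^ 2 / (2 ^ 2 * N x)) = r ^ 2 / 4 by field_simp; ring]
  nlinarith [sq_nonneg r]

theorem uc_pt {Y Θ : Type} [NormedAddCommGroup Y] [InnerProductSpace ℝ Y] [FiniteDimensional ℝ Y]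
    [MeasurableSpace Y] [BorelSpace Y] [NormedAddCommGroup Θ] [InnerProductSpace ℝ Θ] [FiniteDimensional ℝ Θ]
    (C : Cl Θ F) (c : Y →ₗ[ℝ] Θ) (hc : ∀ v, ‖c v‖ = ‖v‖) (w : Y → Θ) {N : Y → ℝ} {ψ : Y → F} {x : Y}
    (hN : DifferentiableAt ℝ N x) (h0 : 0 < N x) (hψ : DifferentiableAt ℝ ψ x) {r δ : ℝ} (hδ : 0 < δ)
    (hr : ‖fderiv ℝ N x‖ ≤ r * N x) :
    N x * ‖dirac C c w (fun y => (((√(N y))⁻¹ : ℝ) : ℂ) • ψ y) x‖ ^ 2 ≤
      (1 + δ) * ‖dirac C c w ψ x‖ ^ 2 + (1 + δ⁻¹) * r ^ 2 * ‖ψ x‖ ^ 2 := by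
  have hχ1 : N x * (√(N x))⁻¹ ^ 2 = 1 := by
    rw [inv_pow, Real.sq_sqrt h0.le, mul_inv_cancel₀ h0.ne']
  have g1 := uc_grad hN h0 hr
  rw [dirac_smul C c w (χ := fun y => (√(N y))⁻¹) ((hN.sqrt h0.ne').inv (Real.sqrt_pos.2 h0).ne') hψ]
  have g2 : ∀ u : Y, ‖Complex.I • C.θ (c u) (ψ x)‖ ^ 2 ≤ ‖u‖ ^ 2 * ‖ψ x‖ ^ 2 := fun u => by
    rw [norm_smul, Complex.norm_I, one_mul, ← mul_pow, ← hc u]
    exact pow_le_pow_left₀ (norm_nonneg _) (C.norm_θ_le _ _) 2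
  refine (mul_le_mul_of_nonneg_left ((uc_sq hδ).trans (add_le_add le_rfl
    (mul_le_mul_of_nonneg_left (g2 _) (by positivity)))) h0.le).trans ?_
  have g4 := mul_le_mul_of_nonneg_left g1 (by positivity : 0 ≤ (1 + δ⁻¹) * ‖ψ x‖ ^ 2)
  rw [norm_smul, Complex.norm_real, Real.norm_eq_abs, mul_pow, sq_abs]
  linear_combination g4 + (1 + δ) * ‖dirac C c w ψ x‖ ^ 2 * hχ1

theorem uc_isq {Y : Type} [NormedAddCommGroup Y] [InnerProductSpace ℝ Y] [FiniteDimensional ℝ Y]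
    [MeasurableSpace Y] [BorelSpace Y] {u : Y → F} (hu : Core u) : Integrable fun x => ‖u x‖ ^ 2 :=
  Continuous.integrable_of_hasCompactSupport (f := fun x => ‖u x‖ ^ 2) (hu.1.continuous.norm.pow 2)
    (HasCompactSupport.intro hu.2 fun x hx => by simp [image_eq_zero_of_notMem_tsupport hx])

/-- Covering lemma: weighted inequalities for finitely many Faddeev–Popov weights give the
unweighted inequality. -/
theorem cover (C : Cl (Th E) F) (σ : Spn) (ε : ℝ) {𝒱 : Wts} (h𝒱 : 𝒱.OK) {ι : Type} [Fintype ι]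
    {p : ι → X E → ℝ} (hp : ∀ i, ContDiff ℝ ∞ (p i)) (hp0 : ∀ i x, 0 ≤ p i x)
    (hpr : ∀ i, RotInv (p i)) {Ω : Set (X E)} (hΩ : IsOpen Ω) (hΩ0 : (0 : X E) ∉ Ω)
    (hcov : ∀ x ∈ Ω, ∃ i k, 0 < p i (Γ.ax k x)) {η : ℝ} (hη : 0 ≤ η)
    (hgrad : ∀ i, ∀ x ∈ Ω, ‖fderiv ℝ (Γ.avg (p i)) x‖ ≤ η / ‖x‖ * Γ.avg (p i) x)
    {W : X E → ℝ} (hWm : Measurable W) (hW0 : ∀ x, 0 ≤ W x)
    (hWb : ∀ S ⊆ Ω, IsCompact S → ∃ b, ∀ x ∈ S, W x ≤ b) (hWi : ∀ k x, W (Γ.ax k x) = W x)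
    {A : ℝ} (hA : 0 ≤ A)
    (hloc : ∀ ψ, Cls 𝔤 C σ.G 𝒱 ψ → tsupport ψ ⊆ Ω → ∀ i,
      ∫ x, p i x * (W x * ‖ψ x‖ ^ 2) ≤ A * ∫ x, p i x * ‖Qe 𝔤 C σ ε ψ x‖ ^ 2)
    {δ : ℝ} (hδ : 0 < δ) {ψ : X E → F} (hψ : Cls 𝔤 C σ.G 𝒱 ψ) (hs : tsupport ψ ⊆ Ω) :
    ∫ x, W x * ‖ψ x‖ ^ 2 ≤ A * ((1 + δ) * (∫ x, ‖Qe 𝔤 C σ ε ψ x‖ ^ 2) +
      (1 + δ⁻¹) * η ^ 2 * ∫ x, 1 / ‖x‖ ^ 2 * ‖ψ x‖ ^ 2) := by
  set N : X E → ℝ := fun x => ∑ i, Γ.avg (p i) x with hN
  have hNs : ContDiff ℝ ∞ N := ContDiff.sum fun i _ => Γ.contDiff_avg (hp i)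
  have hNp : ∀ x ∈ Ω, 0 < N x := fun x hx => by
    obtain ⟨i, k, h⟩ := hcov x hx
    exact Finset.sum_pos' (fun i _ => Γ.avg_nonneg (hp0 i) x)
      ⟨i, Finset.mem_univ i, Γ.avg_pos (hp i).continuous (hp0 i) h⟩
  have hNg : ∀ x ∈ Ω, ‖fderiv ℝ N x‖ ≤ η / ‖x‖ * N x := fun x hx =>
    uc_sum (fun i => (Γ.contDiff_avg (hp i)).differentiable (by simp) x) fun i => hgrad i x hx
  set χ : X E → ℝ := fun x => (√(N x))⁻¹ with hχ
  have hχs : ContDiffOn ℝ ∞ χ Ω :=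
    (hNs.contDiffOn.sqrt fun x hx => (hNp x hx).ne').inv fun x hx => (Real.sqrt_pos.2 (hNp x hx)).ne'
  have hχ1 : ∀ x ∈ Ω, N x * χ x ^ 2 = 1 := fun x hx => by
    rw [hχ, inv_pow, Real.sq_sqrt (hNp x hx).le, mul_inv_cancel₀ (hNp x hx).ne']
  have hφ := hψ.smul h𝒱 hΩ hs hχs (fun ξ x => by
    obtain ⟨k, hk⟩ := Γ.exists_ax_flow ξ
    simp only [hχ, hN, ← hk, Γ.avg_ax]) (fun O hO x => by simp only [hχ, hN, Γ.avg_rotInv (hpr _) O hO x])
  set φ : X E → F := fun x => (χ x : ℂ) • ψ x with hφd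
  have hsφ : tsupport φ ⊆ tsupport ψ := tsupport_smul_subset_right (fun x => (χ x : ℂ)) ψ
  have hφ0 : Cls 𝔤 C σ.G ∅ φ := ⟨hφ.1, hφ.2.1, fun _ h => h.elim⟩
  have hden := fun k x => Γ.densities C σ ε 0 (f := fun _ => 0) contDiff_const (fun k v => (map_zero _).symm) hφ0 k x
  have hS : IsCompact (tsupport ψ) := hψ.1.2
  have z1 : ∀ x, x ∉ tsupport ψ → φ x = 0 := fun x hx => image_eq_zero_of_notMem_tsupport fun h => hx (hsφ h)
  have z2 : ∀ x, x ∉ tsupport ψ → Qe 𝔤 C σ ε φ x = 0 := fun x hx =>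
    image_eq_zero_of_notMem_tsupport fun h => hx (hsφ (tsupport_dirac_subset _ _ _ _ h))
  have hsq : ∀ {u : X E → F}, Core u → Integrable fun x => ‖u x‖ ^ 2 := fun {u} hu => uc_isq hu
  have hQ : ∀ {u : X E → F}, Core u → Core (Qe 𝔤 C σ ε u) := fun {u} hu =>
    hu.dirac C _ (contDiff_wd 𝔤 σ ε contDiff_const)
  have iW : Integrable fun x => W x * ‖φ x‖ ^ 2 := by
    obtain ⟨b, hb⟩ := hWb _ hs hS
    have hm : AEStronglyMeasurable (fun x => W x * ‖φ x‖ ^ 2) volume :=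
      (hWm.mul (hφ.1.1.continuous.norm.pow 2).measurable).aestronglyMeasurable
    refine ((hsq hφ.1).const_mul b).mono' hm (Eventually.of_forall fun x => ?_)
    rw [Real.norm_eq_abs, abs_of_nonneg (mul_nonneg (hW0 x) (sq_nonneg _))]
    by_cases hx : x ∈ tsupport ψ
    · exact mul_le_mul_of_nonneg_right (hb x hx) (sq_nonneg _)
    · simp [z1 x hx]
  have cW : HasCompactSupport fun x => W x * ‖φ x‖ ^ 2 :=
    HasCompactSupport.intro hS fun x hx => by simp [z1 x hx]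
  have cQ : HasCompactSupport fun x => ‖Qe 𝔤 C σ ε φ x‖ ^ 2 :=
    HasCompactSupport.intro hS fun x hx => by simp [z2 x hx]
  have h1 : ∀ i, ∫ x, Γ.avg (p i) x * (W x * ‖φ x‖ ^ 2) ≤ A * ∫ x, Γ.avg (p i) x * ‖Qe 𝔤 C σ ε φ x‖ ^ 2 := fun i => by
    rw [← Γ.integral_avg (hp i).continuous iW cW fun k x => by rw [hWi, (hden k x).1],
      ← Γ.integral_avg (hp i).continuous (hsq (hQ hφ.1)) cQ fun k x => by rw [(hden k x).2.1]]
    exact hloc φ hφ (hsφ.trans hs) i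
  have h2 := Finset.sum_le_sum fun i (_ : i ∈ Finset.univ) => h1 i
  rw [← Finset.mul_sum,
    ← integral_finsetSum _ fun i _ => uc_mul hS (Γ.contDiff_avg (hp i)).continuous.continuousOn iW
      fun x hx => by simp [z1 x hx],
    ← integral_finsetSum _ fun i _ => uc_mul hS (Γ.contDiff_avg (hp i)).continuous.continuousOn (hsq (hQ hφ.1))
      fun x hx => by simp [z2 x hx]] at h2
  simp only [← Finset.sum_mul] at h2
  have e1 : ∀ x, N x * (W x * ‖φ x‖ ^ 2) = W x * ‖ψ x‖ ^ 2 := fun x => by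
    by_cases hx : x ∈ tsupport ψ
    · rw [hφd]
      simp only [norm_smul, Complex.norm_real, Real.norm_eq_abs, mul_pow, sq_abs]
      linear_combination W x * ‖ψ x‖ ^ 2 * hχ1 x (hs hx)
    · simp [z1 x hx, image_eq_zero_of_notMem_tsupport hx]
  have iH : Integrable fun x => 1 / ‖x‖ ^ 2 * ‖ψ x‖ ^ 2 :=
    uc_mul hS (continuousOn_const.div (continuous_norm.pow 2).continuousOn fun x hx =>
      pow_ne_zero 2 (norm_ne_zero_iff.2 fun h => hΩ0 (h ▸ hs hx))) (hsq hψ.1)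
      fun x hx => by simp [image_eq_zero_of_notMem_tsupport hx]
  have e2 : ∀ x, N x * ‖Qe 𝔤 C σ ε φ x‖ ^ 2 ≤
      (1 + δ) * ‖Qe 𝔤 C σ ε ψ x‖ ^ 2 + (1 + δ⁻¹) * η ^ 2 * (1 / ‖x‖ ^ 2 * ‖ψ x‖ ^ 2) := fun x => by
    by_cases hx : x ∈ tsupport ψ
    · have := uc_pt C (cmap σ.G σ.s) (norm_cmap σ.G σ.unit) (wd 𝔤 σ ε fun _ => 0) (hNs.differentiable (by simp) x) (hNp x (hs hx))
        (hψ.1.1.differentiable (by simp) x) hδ (hNg x (hs hx))
      rw [div_pow, div_eq_mul_one_div, ← mul_assoc, mul_assoc _ (1 / _)] at this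
      exact this
    · rw [z2 x hx, norm_zero, zero_pow two_ne_zero, mul_zero]; positivity
  have h3 := integral_mono (uc_mul hS hNs.continuous.continuousOn (hsq (hQ hφ.1)) fun x hx => by simp [z2 x hx])
    (((hsq (hQ hψ.1)).const_mul (1 + δ)).add (iH.const_mul ((1 + δ⁻¹) * η ^ 2))) e2
  simp only [Pi.add_apply] at h3
  rw [integral_add ((hsq (hQ hψ.1)).const_mul _) (iH.const_mul _), integral_const_mul, integral_const_mul] at h3
  calc ∫ x, W x * ‖ψ x‖ ^ 2 = ∫ x, N x * (W x * ‖φ x‖ ^ 2) := by simp only [e1]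
    _ ≤ _ := h2
    _ ≤ _ := mul_le_mul_of_nonneg_left h3 hA

end Grp

end Crest.Agent.R330

end
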